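import Vale.Agent.P091.T.H43.Glue
import Vale.Agent.P091.T.H316.Stage
import Vale.Agent.P091.T.H284.Stage

/-!
# P091, T block, row E1-G, last part (helper43): `P_STAGE → P_E1`

* `glue0` : `‖below (ng (cut p (W ·)))‖ ≤ 2 ms(Y) ∑_t ‖stage t‖` for every activation process;
* `p_E1_of` : helper316's `P_STAGE` gives `P_E1`;
* `P_STAGEC`, `stage_of` : the same with the delayed half-difference form `FC` of a stage.
-/

set_option autoImplicit false

open Finset
open Vale.Agent.P091.Spec Vale.Agent.P091.H413 Vale.Agent.P091.T.H350 Vale.Agent.P091.T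
open scoped Classical

noncomputable section

namespace Vale.Agent.P091.T.H43

section

variable {C1 D : ℝ} {n b : ℕ} {ι : Type} [Fintype ι]

/-- the form of an epoch is at most the sum of the forms of the stages -/
theorem glue0 (d : ZData C1 D n b ι) {s0 : ℝ} {j0 a0 : ℕ} {Y : Finset ℕ}
    {W : ℕ → ℕ → Finset ℕ} (hF : Fam d s0 j0 a0 Y W) (pd : H233.PD ι)
    (hst : ∀ κ (v : Node), pd.st κ v ↔ d.js κ + 3 ≤ j0 + v.length)
    (hgone : ∀ κ (v : Node), j0 + v.length ≤ n → pd.gone κ v →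
      ∀ i ∈ nd n (j0 + v.length) (ia a0 v), d.A κ i = 0)
    (S0 : ℕ) (hJ : ∀ Z v, pd.rule S0 Z v = Z) :
    ‖below j0 a0 (n - 1) fun j a => ng d (cut d.p (W j a)) j a‖
      ≤ 2 * ms n j0 a0 (cut d.p Y) * ∑ t ∈ range (S0 + 1),
        ‖SC (n - 1 - j0) (fun v => ∑ κ, if pd.mem t κ v then
          hd (hd (XA n j0 a0 (d.A κ))) v * dY d j0 a0 W (av n j0 a0 (cut d.p Y)) κ v
          else 0) []‖ := by
  set B := av n j0 a0 (cut d.p Y) with hB
  have hB0 : 0 < B := (Real.exp_pos _).trans_le hF.dens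
  have hpres : ∀ t κ (v : Node), pd.mem t κ v → κ ∈ pd.pres v := by
    intro t κ v h
    obtain ⟨ℓ, hℓ, h1⟩ := pd.exists_new h
    have h2 := (pd.mem_pres.1 (pd.new_spec h1).1).1
    rw [hst, H233.length_anc hℓ] at h2
    rw [pd.mem_pres, hst]
    exact ⟨by omega, h.2.2⟩
  have h1 : below j0 a0 (n - 1) (fun j a => ng d (cut d.p (W j a)) j a)
      = (2 * B / 2 ^ j0 : ℂ) * ∑ t ∈ range (S0 + 1), SC (n - 1 - j0) (fun v => ∑ κ,
        if pd.mem t κ v then hd (hd (XA n j0 a0 (d.A κ))) v * dY d j0 a0 W B κ v else 0) [] := by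
    rw [below_rel, ← SC_sum, ← SC_smul]
    refine SC_congr _ _ fun v hv => ?_
    rw [List.length_nil, Nat.add_zero] at hv
    rw [ng_rel d j0 a0 W hB0.ne' (by omega)]
    congr 1
    have h2 : (∑ k, if d.js k + 3 ≤ j0 + v.length then
          hd (hd (XA n j0 a0 (d.A k))) v * dY d j0 a0 W B k v else 0)
        = ∑ κ ∈ pd.pres v, hd (hd (XA n j0 a0 (d.A κ))) v * dY d j0 a0 W B κ v := by
      rw [← sum_filter]
      symm
      refine sum_subset ?_ ?_
      · intro κ hκ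
        rw [pd.mem_pres, hst] at hκ
        rw [mem_filter]
        exact ⟨mem_univ _, hκ.1⟩
      · intro κ hκ hκ2
        rw [mem_filter] at hκ
        rw [pd.mem_pres, hst] at hκ2
        have hg : pd.gone κ v := by
          by_contra h
          exact hκ2 ⟨hκ.2, h⟩
        have h3 := hgone κ v (by omega) hg
        have h4 : hd (hd (XA n j0 a0 (d.A κ))) v = 0 := by
          have h5 : hd (hd (XA n j0 a0 (d.A κ))) v
              = (∑ i ∈ nd n (j0 + v.length) (ia a0 v), d.A κ i * sg n (j0 + v.length) i)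
                / 2 ^ (n - (j0 + v.length)) := by
            rw [node_term (by omega)]
            unfold hd XA
            simp only [List.length_cons, ia_true, ia_false]
            have e1 : 2 * (2 * ia a0 v) = 4 * ia a0 v := by ring
            have e3 : 2 * (2 * ia a0 v + 1) = 4 * ia a0 v + 2 := by ring
            rw [e1, e3]
            rfl
          rw [h5, sum_eq_zero, zero_div]
          intro i hi
          rw [h3 i hi, zero_mul]
        rw [h4, zero_mul]
    rw [h2, pd.sum_stages hJ v]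
    refine sum_congr rfl fun t _ => ?_
    refine sum_subset (subset_univ _) fun κ _ hκ => ?_
    rw [if_neg fun h => hκ (hpres t κ v h)]
  rw [h1, norm_mul]
  have h2 : ‖(2 * B / 2 ^ j0 : ℂ)‖ = 2 * ms n j0 a0 (cut d.p Y) := by
    rw [H34.ms_eq hF.j0_le, norm_div, norm_mul, norm_pow, Complex.norm_ofNat, Complex.norm_real,
      Real.norm_of_nonneg hB0.le]
    ring
  rw [h2]
  refine mul_le_mul_of_nonneg_left (norm_sum_le _ _) ?_
  rw [H34.ms_eq hF.j0_le]
  positivity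

/-- helper316's form of the stage is the one of `glue0` -/
lemma gZ_eq (d : ZData C1 D n b ι) (A : ℝ) (J : List (Un n b)) (j0 a0 : ℕ) (Y : Finset ℕ)
    (W : ℕ → ℕ → Finset ℕ) (t : ℕ) :
    H316.gZ d A J j0 a0 Y W t = fun v => ∑ κ, if (H233.pdZ d A J j0 a0).mem t κ v then
      hd (hd (XA n j0 a0 (d.A κ))) v * dY d j0 a0 W (av n j0 a0 (cut d.p Y)) κ v else 0 := by
  funext v
  unfold H316.gZ
  refine sum_congr rfl fun κ _ => ?_
  have e : H316.dMZ d j0 a0 Y W κ v = dY d j0 a0 W (av n j0 a0 (cut d.p Y)) κ v := by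
    unfold H316.dMZ dY H316.bt
    rw [Complex.ofReal_mul, Complex.ofReal_ofNat]
    rfl
  rw [e]
  rfl

/-- the form of an epoch from the forms of the stages of `pdZ` -/
theorem epoch_le (d : ZData C1 D n b ι) (A : ℝ) (J : List (Un n b)) {s0 : ℝ} {j0 a0 : ℕ}
    {Y : Finset ℕ} {W : ℕ → ℕ → Finset ℕ} (hF : Fam d s0 j0 a0 Y W) :
    ‖below j0 a0 (n - 1) fun j a => ng d (cut d.p (W j a)) j a‖
      ≤ 2 * ms n j0 a0 (cut d.p Y) * ∑ t ∈ range (sm A C1 D),
        ‖SC (n - 1 - j0) (H316.gZ d A J j0 a0 Y W t) []‖ := by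
  have h := glue0 d hF (H233.pdZ d A J j0 a0) (fun κ v => Iff.rfl)
    (fun κ v hv hg => (H233.gone_iff d A J j0 a0 (by omega)).1 hg) (sm A C1 D - 1)
    (fun Z v => H233.rule_last d A J j0 a0 Z v)
  rw [Nat.sub_add_cancel (H233.sm_pos A)] at h
  refine h.trans (le_of_eq ?_)
  congr 1
  refine sum_congr rfl fun t _ => ?_
  rw [gZ_eq]

end

/-- **`P_STAGE` gives `P_E1`** -/
theorem p_E1_of (h : H316.P_STAGE) : P_E1 := by
  intro s0 A C1 c hs0 hA hC1 hc
  obtain ⟨C, D0, hC⟩ := h s0 A C1 c hs0 hA hC1 hc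
  have h1 := H284.epoch_of_stages A C1 (max C 0) hA hC1 (le_max_right _ _)
  obtain ⟨D1, hD1⟩ := Filter.eventually_atTop.1 h1
  refine ⟨2 * (max C 0 * (3 * A + 1)), max (max D0 D1) 1, ?_⟩
  intro D n ι _ d J j0 a0 Y W hD hE
  have hD0 : D0 ≤ D := ((le_max_left _ _).trans (le_max_left _ _)).trans hD
  have hD1' : D1 ≤ D := ((le_max_right _ _).trans (le_max_left _ _)).trans hD
  have hD2 : (1:ℝ) ≤ D := (le_max_right _ _).trans hD
  have hF : Fam d s0 j0 a0 Y W := hE.toFam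
  have h2 := epoch_le d A J hF
  have h3 := hD1 D hD1' (fun t => ‖SC (n - 1 - j0) (H316.gZ d A J j0 a0 Y W t) []‖)
    (fun t ht => (hC D n ι d J j0 a0 Y W t hD0 hE ht).trans (by
      have hA0 : 0 ≤ A := by linarith
      have h4 := H284.th_nonneg' hA0 (by linarith : 0 ≤ D) (t + 1)
      have h5 : 0 ≤ (1 / 2 : ℝ) ^ (t + 1) * th A D (t + 1) + D / (ll D : ℝ) ^ 3 := by
        positivity
      exact mul_le_mul_of_nonneg_right (le_max_left _ _) h5))
  have h6 : 0 ≤ ms n j0 a0 (cut d.p Y) := by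
    rw [H34.ms_eq hF.j0_le]
    have : 0 < av n j0 a0 (cut d.p Y) := (Real.exp_pos _).trans_le hF.dens
    positivity
  calc _ ≤ _ := h2
    _ ≤ 2 * ms n j0 a0 (cut d.p Y) * (max C 0 * (3 * A + 1) * (D / ll D)) :=
        mul_le_mul_of_nonneg_left h3 (by positivity)
    _ = _ := by ring

/-! ## the delayed form -/

/-- **the gain of one stage, delayed half-difference form**: the classes that are in the stage at
`v` and still at the child `c` -/
def P_STAGEC : Prop := ∀ s0 A C1 c : ℝ, 0 < s0 → 1 ≤ A → 0 ≤ C1 → 0 < c → ∃ C D0 : ℝ,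
  ∀ (D : ℝ) (n : ℕ) (ι : Type) [Fintype ι] (d : ZData C1 D n (bb D) ι)
    (J : List (Un n (bb D))) (j0 a0 : ℕ) (Y : Finset ℕ) (W : ℕ → ℕ → Finset ℕ) (t : ℕ)
    (z : Bool),
    D0 ≤ D → Epoch d A c s0 J j0 a0 Y W → t < sm A C1 D →
    S (n - 1 - j0) (fun v => ‖FC d j0 a0 W (av n j0 a0 (cut d.p Y))
        (H233.pdZ d A J j0 a0) t z v‖) []
      ≤ C * ((1 / 2 : ℝ) ^ (t + 1) * th A D (t + 1) + D / (ll D : ℝ) ^ 3)

/-- the delayed form gives helper316's form -/
theorem stage_of (h : P_STAGEC) : H316.P_STAGE := by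
  intro s0 A C1 c hs0 hA hC1 hc
  obtain ⟨C, D0, hC⟩ := h s0 A C1 c hs0 hA hC1 hc
  obtain ⟨D1, hD1⟩ := Filter.eventually_atTop.1 (H284.ev_poly 0 3 2)
  refine ⟨C + 1, max (max D0 D1) 1, ?_⟩
  intro D n ι _ d J j0 a0 Y W t hD hE ht
  have hD0 : D0 ≤ D := ((le_max_left _ _).trans (le_max_left _ _)).trans hD
  have hD1' : D1 ≤ D := ((le_max_right _ _).trans (le_max_left _ _)).trans hD
  have hD2 : (1:ℝ) ≤ D := (le_max_right _ _).trans hD
  have hF : Fam d s0 j0 a0 Y W := hE.toFam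
  have h1 := stage_le d hF (H233.pdZ d A J j0 a0) t
    (fun z => hC D n ι d J j0 a0 Y W t z hD0 hE ht)
  rw [gZ_eq]
  refine h1.trans ?_
  have h2 := hD1 D hD1'
  rw [pow_zero, mul_one] at h2
  have hA0 : 0 ≤ A := by linarith
  have h4 := H284.th_nonneg' hA0 (by linarith : 0 ≤ D) (t + 1)
  have h5 : 0 ≤ (1 / 2 : ℝ) ^ (t + 1) * th A D (t + 1) := by positivity
  rw [add_one_mul]
  linarith

theorem p_E1_ofC (h : P_STAGEC) : P_E1 := p_E1_of (stage_of h)

end Vale.Agent.P091.T.H43
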