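import Vale.Agent.P091.T.H103.Dat
import Vale.Agent.P091.T.H43.PE1

/-!
# P091, T block, row E1-D (helper43): from the conclusion of `inst` to the gain of a stage

For every `Dat` with the coefficients, densities and letters of the epoch and the status of the
stage `t` of `pdZ`:

* `dX_eq` : the half difference of the `x`-coefficient;
* `dM_eq` : the half difference of the bias = `dMZ`;
* `gain_of` : the bounds of `inst` for both children bound the gain of the stage.
-/

set_option autoImplicit false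

open Finset
open Vale.Agent.P091.Spec Vale.Agent.P091.H413 Vale.Agent.P091.T.H350
open scoped Classical

set_option linter.unusedSectionVars false

noncomputable section

namespace Vale.Agent.P091.T.H43

/-- 103's average over the leaves -/
lemma LC_XA {n j0 a0 : ℕ} (F : ℕ → ℂ) (m : ℕ) (v : Node) (hv : j0 + v.length + m = n) :
    H103.LC m (fun x => F (T.ia a0 x)) v = XA n j0 a0 F v := by
  induction m generalizing v with
  | zero =>
    simp only [H103.LC]
    unfold XA
    have : j0 + v.length = n := by omega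
    rw [this, avC_leaf]
    rfl
  | succ m ih =>
    simp only [H103.LC]
    rw [ih (true :: v) (by simp only [List.length_cons]; omega),
      ih (false :: v) (by simp only [List.length_cons]; omega), ← XA_mart F (by omega)]

/-- 103's half difference over the children -/
lemma DC_XA {n j0 a0 : ℕ} (F : ℕ → ℂ) (m : ℕ) (v : Node) (hv : j0 + v.length + 1 + m = n) :
    H103.DC m (fun x => F (T.ia a0 x)) v = hd (XA n j0 a0 F) v := by
  unfold H103.DC hd
  rw [LC_XA F m (true :: v) (by simp only [List.length_cons]; omega),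
    LC_XA F m (false :: v) (by simp only [List.length_cons]; omega)]

section

variable {C1 D : ℝ} {n b : ℕ} {ι : Type} [Fintype ι] (d : ZData C1 D n b ι)
variable {I Q : Type} [Fintype I] [Fintype Q] (dd : H103.Dat ι I Q)
variable {j0 a0 : ℕ} {Y : Finset ℕ} {W : ℕ → ℕ → Finset ℕ}

/-- average of a class in a node -/
lemma ma_eq (hn : dd.n = n - j0) (ha : ∀ κ x, dd.a κ x = d.a κ (T.ia a0 x)) (κ : ι) {v : Node}
    (hv : j0 + v.length ≤ n) :
    dd.ma κ v = av n (j0 + v.length) (T.ia a0 v) (d.a κ) := by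
  unfold H103.Dat.ma H103.Dat.av
  rw [show dd.a κ = fun x => d.a κ (T.ia a0 x) from funext (ha κ), hn]
  exact T.Lf_ia (d.a κ) _ (by omega)

lemma dX_eq (hn : dd.n = n - j0) (hA : ∀ κ x, dd.A κ x = d.A κ (T.ia a0 x)) (κ : ι) {v : Node}
    (hv : j0 + v.length < n) : dd.dX κ v = hd (XA n j0 a0 (d.A κ)) v := by
  unfold H103.Dat.dX
  rw [show dd.A κ = fun x => d.A κ (T.ia a0 x) from funext (hA κ), hn]
  exact DC_XA (d.A κ) _ v (by omega)

lemma avC_smul' (c : ℂ) (F : ℕ → ℂ) (j a : ℕ) :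
    avC n j a (fun i => c * F i) = c * avC n j a F := by
  unfold avC
  rw [← mul_sum, mul_div_assoc]

/-- the integrand of the bias -/
def gf (j0 a0 : ℕ) (Y : Finset ℕ) (W : ℕ → ℕ → Finset ℕ) (κ : ι) (v : Node) (i : ℕ) : ℂ :=
  (H316.bt d j0 a0 Y : ℂ)⁻¹ * ((cut d.p (W (j0 + v.length) (T.ia a0 v)) i : ℂ) *
    ch n b (-(d.r κ * i)))

lemma fe_eq (hf : ∀ v y, dd.f v y = cut d.p (W (j0 + v.length) (T.ia a0 v)) (T.ia a0 y) /
      (2 * av n j0 a0 (cut d.p Y)))
    (he : ∀ κ y, dd.e κ y = ch n b (-(d.r κ * (T.ia a0 y : ℕ)))) (κ : ι) (v y : Node) :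
    (dd.f v y : ℂ) * dd.e κ y = gf d j0 a0 Y W κ v (T.ia a0 y) := by
  rw [hf, he]
  unfold gf H316.bt
  push_cast
  ring

/-- the bias, departure density -/
lemma M_eq (hn : dd.n = n - j0)
    (hf : ∀ v y, dd.f v y = cut d.p (W (j0 + v.length) (T.ia a0 v)) (T.ia a0 y) /
      (2 * av n j0 a0 (cut d.p Y)))
    (he : ∀ κ y, dd.e κ y = ch n b (-(d.r κ * (T.ia a0 y : ℕ)))) (κ : ι) {v : Node}
    (hv : j0 + v.length ≤ n) :
    dd.M κ v = BZ n b (cut d.p (W (j0 + v.length) (T.ia a0 v))) (d.r κ) (j0 + v.length)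
      (T.ia a0 v) / (H316.bt d j0 a0 Y : ℂ) := by
  unfold H103.Dat.M H103.Dat.avC
  rw [funext fun y => fe_eq d dd hf he κ v y, hn, LC_XA (n := n) (j0 := j0) (gf d j0 a0 Y W κ v) _ _ (by omega)]
  unfold XA gf BZ
  rw [avC_smul']
  show _ * avC n (j0 + v.length) (T.ia a0 v) _ = _
  rw [mul_comm, ← div_eq_mul_inv]

lemma dM_eq (hn : dd.n = n - j0)
    (hf : ∀ v y, dd.f v y = cut d.p (W (j0 + v.length) (T.ia a0 v)) (T.ia a0 y) /
      (2 * av n j0 a0 (cut d.p Y)))
    (he : ∀ κ y, dd.e κ y = ch n b (-(d.r κ * (T.ia a0 y : ℕ)))) (κ : ι) {v : Node}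
    (hv : j0 + v.length < n) : dd.dM κ v = H316.dMZ d j0 a0 Y W κ v := by
  unfold H103.Dat.dM
  rw [funext fun y => fe_eq d dd hf he κ v y, hn, DC_XA (n := n) (j0 := j0) (gf d j0 a0 Y W κ v) _ _ (by omega)]
  unfold hd XA H316.dMZ dZ BZ gf
  rw [avC_smul', avC_smul']
  have e2 : ia a0 (true :: v) = 2 * T.ia a0 v := ia_true a0 v
  have e3 : ia a0 (false :: v) = 2 * T.ia a0 v + 1 := ia_false a0 v
  rw [e2, e3]
  simp only [List.length_cons, ← add_assoc]
  ring

/-- **the conclusion of `inst` gives the bound of the stage** -/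
theorem gain_of (A : ℝ) (J : List (Un n b)) (t : ℕ) (hn : dd.n = n - j0)
    (hA : ∀ κ x, dd.A κ x = d.A κ (T.ia a0 x))
    (hf : ∀ v y, dd.f v y = cut d.p (W (j0 + v.length) (T.ia a0 v)) (T.ia a0 y) /
      (2 * av n j0 a0 (cut d.p Y)))
    (he : ∀ κ y, dd.e κ y = ch n b (-(d.r κ * (T.ia a0 y : ℕ))))
    (hst : ∀ κ v, dd.st κ v = none ↔ ¬ (H233.pdZ d A J j0 a0).mem t κ v) {X : ℝ}
    (hX : ∀ c : Bool, S (dd.n - 1) (fun v => ‖∑ κ, dd.dX κ (c :: v) *
        (if dd.st κ v = none then 0 else dd.dM κ v)‖) [] ≤ X) :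
    ‖SC (n - 1 - j0) (H316.gZ d A J j0 a0 Y W t) []‖ ≤ X := by
  have hm : n - 1 - j0 = dd.n - 1 := by omega
  rw [hm]
  refine (norm_SC_le _ _ _).trans ?_
  have key : ∀ v : Node, v.length < dd.n - 1 + ([] : Node).length →
      ‖H316.gZ d A J j0 a0 Y W t v‖ ≤
        (1 / 2) * ‖∑ κ, dd.dX κ (true :: v) * (if dd.st κ v = none then 0 else dd.dM κ v)‖ +
        (1 / 2) * ‖∑ κ, dd.dX κ (false :: v) * (if dd.st κ v = none then 0 else dd.dM κ v)‖ := by
    intro v hv
    simp only [List.length_nil, add_zero] at hv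
    have e : H316.gZ d A J j0 a0 Y W t v =
        (1 / 2) * (∑ κ, dd.dX κ (true :: v) * (if dd.st κ v = none then 0 else dd.dM κ v)) -
        (1 / 2) * (∑ κ, dd.dX κ (false :: v) *
          (if dd.st κ v = none then 0 else dd.dM κ v)) := by
      unfold H316.gZ
      rw [mul_sum, mul_sum, ← sum_sub_distrib]
      refine sum_congr rfl fun κ _ => ?_
      by_cases h : (H233.pdZ d A J j0 a0).mem t κ v
      · have h1 : dd.st κ v ≠ none := fun h2 => (hst κ v).1 h2 h
        rw [if_pos h, if_neg h1,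
          dX_eq d dd hn hA κ (v := true :: v) (by simp only [List.length_cons]; omega),
          dX_eq d dd hn hA κ (v := false :: v) (by simp only [List.length_cons]; omega),
          dM_eq d dd (Y := Y) (W := W) hn hf he κ (by omega)]
        have e2 : H316.cA d j0 a0 κ = XA n j0 a0 (d.A κ) := rfl
        rw [e2, hd]
        ring
      · have h1 : dd.st κ v = none := (hst κ v).2 h
        rw [if_neg h, if_pos h1]
        ring
    rw [e]
    refine (norm_sub_le _ _).trans (le_of_eq ?_)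
    rw [norm_mul, norm_mul]
    have e2 : ‖(1 / 2 : ℂ)‖ = 1 / 2 := by norm_num
    rw [e2]
  refine (S_mono _ _ key).trans ?_
  rw [S_add, S_smul, S_smul]
  have h1 := hX true
  have h2 := hX false
  linarith

end

end Vale.Agent.P091.T.H43
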