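import Vale.Agent.P091.T.H43.DZ
import Vale.Agent.P091.T.H43.DatG

/-!
# P091, T block, row E1-D (helper43): `Ok` of the data of a stage

`DZ_ok` : the hypotheses `Dat.Ok` of helper103's `inst` for `DZ`, in an epoch with `j0 < n`.
-/

set_option autoImplicit false

open Finset
open Vale.Agent.P091.Spec Vale.Agent.P091.H413 Vale.Agent.P091.T.H350
open Vale.Agent.P065.Ent (IsProb)
open Vale.Agent.P091.T.H120
open scoped Classical

noncomputable section

namespace Vale.Agent.P091.T.H43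

/-! ## the status -/

section st

variable {ι : Type} [Fintype ι] (pd : H233.PD ι)

lemma stZ_nil (t : ℕ) (κ : ι) : stZ pd t κ [] = none ∨ stZ pd t κ [] = some [] := by
  simp only [stZ]
  split_ifs
  · exact Or.inr rfl
  · exact Or.inl rfl

lemma stZ_step (t : ℕ) (κ : ι) (c : Bool) (v : Node) :
    stZ pd t κ (c :: v) = none ∨ stZ pd t κ (c :: v) = stZ pd t κ v ∨
      stZ pd t κ (c :: v) = some (c :: v) := by
  simp only [stZ]
  split_ifs
  · exact Or.inr (Or.inr rfl)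
  · exact Or.inr (Or.inl rfl)
  · exact Or.inl rfl

end st

/-! ## the alive density -/

variable {C1 D : ℝ} {n b : ℕ} {ι : Type} [Fintype ι] {d : ZData C1 D n b ι}
variable {s0 : ℝ} {j0 a0 : ℕ} {Y : Finset ℕ} {W : ℕ → ℕ → Finset ℕ}

lemma cut_nonneg (d : ZData C1 D n b ι) (Z : Finset ℕ) (i : ℕ) : 0 ≤ cut d.p Z i := by
  unfold cut
  split_ifs
  · exact d.p_nonneg i
  · exact le_rfl

lemma cut_mono (d : ZData C1 D n b ι) {Z Z' : Finset ℕ} (h : Z ⊆ Z') (i : ℕ) :
    cut d.p Z i ≤ cut d.p Z' i := by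
  by_cases hi : i ∈ Z
  · unfold cut
    rw [if_pos hi, if_pos (h hi)]
  · have := cut_nonneg d Z' i
    unfold cut at this ⊢
    rw [if_neg hi]
    exact this

lemma fZ_nonneg (hF : Fam d s0 j0 a0 Y W) (v y : Node) : 0 ≤ fZ d j0 a0 Y W v y := by
  have hB : 0 < av n j0 a0 (cut d.p Y) := (Real.exp_pos _).trans_le hF.dens
  unfold fZ
  exact div_nonneg (cut_nonneg d _ _) (by positivity)

lemma Tia_root (a0 : ℕ) (v : Node) (j0 : ℕ) : T.ia a0 v / 2 ^ (j0 + v.length - j0) = a0 := by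
  rw [Nat.add_sub_cancel_left]
  exact T.ia_root a0 v

lemma W_cons_sub (hF : Fam d s0 j0 a0 Y W) (c : Bool) {v : Node}
    (hv : j0 + v.length + 1 ≤ n) :
    W (j0 + (c :: v).length) (T.ia a0 (c :: v)) ⊆ W (j0 + v.length) (T.ia a0 v) := by
  have h := hF.W_sub (j0 + (c :: v).length) (T.ia a0 (c :: v)) (by omega)
    (by simp only [List.length_cons]; omega) (Tia_root a0 (c :: v) j0)
  refine h.trans ?_
  unfold arr
  rw [if_neg (by simp only [List.length_cons]; omega), T.ia_div_two]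
  have e : j0 + (c :: v).length - 1 = j0 + v.length := by
    simp only [List.length_cons]; omega
  rw [e]
  exact inter_subset_left

lemma fZ_cons_le (hF : Fam d s0 j0 a0 Y W) (c : Bool) {v : Node}
    (hv : j0 + v.length + 1 ≤ n) (y : Node) :
    fZ d j0 a0 Y W (c :: v) y ≤ fZ d j0 a0 Y W v y := by
  have hB : 0 < av n j0 a0 (cut d.p Y) := (Real.exp_pos _).trans_le hF.dens
  unfold fZ
  have := cut_mono d (W_cons_sub hF c hv) (T.ia a0 y)
  gcongr

/-- density of the departure set -/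
lemma av_W_le (hF : Fam d s0 j0 a0 Y W) {v : Node} (hv : j0 + v.length ≤ n) :
    av n (j0 + v.length) (T.ia a0 v) (cut d.p (W (j0 + v.length) (T.ia a0 v)))
      ≤ 2 * av n j0 a0 (cut d.p Y) := by
  have hB : 0 < av n j0 a0 (cut d.p Y) := (Real.exp_pos _).trans_le hF.dens
  rcases (W (j0 + v.length) (T.ia a0 v)).eq_empty_or_nonempty with h0 | h0
  · rw [h0]
    have : cut d.p ∅ = fun _ => 0 := by funext i; simp [cut]
    rw [this, av_const]
    positivity
  · refine le_trans (av_mono fun i _ => ?_)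
      (hF.W_le _ _ (by omega) (by omega) (Tia_root a0 v j0) h0)
    exact cut_mono d (hF.W_sub (j0 + v.length) (T.ia a0 v) (by omega) (by omega)
      (Tia_root a0 v j0)) i

lemma av_div (F : ℕ → ℝ) (c : ℝ) (j a : ℕ) : av n j a (fun i => F i / c) = av n j a F / c := by
  unfold av
  rw [← sum_div]
  ring

lemma av_fZ (d : ZData C1 D n b ι) (A : ℝ) (J : List (Un n b)) (j0 a0 : ℕ) (Y : Finset ℕ)
    (W : ℕ → ℕ → Finset ℕ) (t : ℕ) {v : Node} (hv : j0 + v.length ≤ n) :
    (DZ d A J j0 a0 Y W t).av v ((DZ d A J j0 a0 Y W t).f v) =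
      av n (j0 + v.length) (T.ia a0 v) (cut d.p (W (j0 + v.length) (T.ia a0 v))) /
        (2 * av n j0 a0 (cut d.p Y)) := by
  unfold H103.Dat.av
  rw [← av_div]
  exact T.Lf_ia (fun i => cut d.p (W (j0 + v.length) (T.ia a0 v)) i /
    (2 * av n j0 a0 (cut d.p Y))) _ (by show j0 + v.length + (n - j0 - v.length) = n; omega)

lemma err_none (d : ZData C1 D n b ι) (A : ℝ) (J : List (Un n b)) (j0 a0 : ℕ) (Y : Finset ℕ)
    (W : ℕ → ℕ → Finset ℕ) (t : ℕ) {κ : ι} {v : Node}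
    (h : stZ (H233.pdZ d A J j0 a0) t κ v = none) : (DZ d A J j0 a0 Y W t).err κ v = 0 := by
  simp only [DZ, h]

lemma err_some (d : ZData C1 D n b ι) (A : ℝ) (J : List (Un n b)) (j0 a0 : ℕ) (Y : Finset ℕ)
    (W : ℕ → ℕ → Finset ℕ) (t : ℕ) {κ : ι} {v w : Node}
    (h : stZ (H233.pdZ d A J j0 a0) t κ v = some w) : (DZ d A J j0 a0 Y W t).err κ v =
      4 * Real.pi / 2 ^ b / 2 ^ (v.length - w.length) := by
  simp only [DZ, h]

lemma norm_ch' (x : ZMod (2 ^ (n + b))) : ‖ch n b x‖ = 1 := AddChar.norm_apply _ _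

/-- **`Ok` of the data of a stage** -/
theorem DZ_ok (hF : Fam d s0 j0 a0 Y W) (hj : j0 < n) (A : ℝ) {J : List (Un n b)}
    (hJ : ∀ k ∈ J, IsProb k.P) (hJ' : ∀ k ∈ J, IsProb k.ρ) (hφ : PhiGe d A J j0 a0) (t : ℕ) :
    (DZ d A J j0 a0 Y W t).Ok where
  n0 := by show 0 < n - j0; omega
  a0 κ x _ := d.a_nonneg κ _
  a1 x _ := d.a_sum _
  Aa κ x _ := d.A_le κ _
  f0 v x _ _ := fZ_nonneg hF v x
  fm c v x hv _ _ := fZ_cons_le hF c (by
    have : v.length + 1 < n - j0 := hv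
    omega) x
  f1 v hv := by
    have h1 : v.length < n - j0 := hv
    have hB : 0 < av n j0 a0 (cut d.p Y) := (Real.exp_pos _).trans_le hF.dens
    rw [av_fZ d A J j0 a0 Y W t (by omega), div_le_one (by positivity)]
    exact av_W_le hF (by omega)
  e1 κ x _ := (norm_ch' _).le
  E1 i x _ := (norm_ch' _).le
  st0 κ := stZ_nil _ t κ
  sts κ c v _ := stZ_step _ t κ c v
  pi0 w κ i := H233.wtZ_nonneg d A j0 a0 hJ t κ w i
  pi1 w κ := H233.sum_wtZ_le d A j0 a0 hJ t κ w
  P0 q x _ := kerJ_nonneg hJ' _ _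
  P1 x _ := sum_kerJ hJ' _
  s1 w κ i x q _ := norm_sS_le hJ _ _ _ _ _ _
  c1 w κ i := norm_cS_le hJ hJ' _ _ _ _
  ph1 κ v w _ hw := by
    obtain ⟨_, _, _, h4⟩ := stZ_some _ hw
    have h5 := hφ t κ w h4
    have e : (DZ d A J j0 a0 Y W t).ph w κ =
        phiJ J (j0 + w.length) (ES d A J j0 a0 t w κ) := by
      rw [← sum_wE_cS hJ hJ' (j0 + w.length) (ES d A J j0 a0 t w κ) (d.r κ)]
      unfold H103.Dat.ph
      refine sum_congr rfl fun i _ => ?_
      show ((H233.wtZ d A J j0 a0 t κ w i : ℝ) : ℂ) * _ = _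
      rw [wtZ_eq]
      rfl
    rw [e]
    exact h5
  err0 κ v := by
    rcases h : stZ (H233.pdZ d A J j0 a0) t κ v with _ | w
    · rw [err_none d A J j0 a0 Y W t h]
    · rw [err_some d A J j0 a0 Y W t h]
      positivity
  T2 κ v w hv hw i x y hx hvx hy hvy := by
    have hv1 : v.length < n - j0 := hv
    have hx1 : x.length = n - j0 := hx
    have hy1 : y.length = n - j0 := hy
    obtain ⟨_, h2, _, h4⟩ := stZ_some _ hw
    have h1 := sS_rep hJ hJ' (ES d A J j0 a0 t w κ) (j' := j0 + v.length)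
      (a' := H233.ia a0 v) (by omega) (by omega) (d.r κ) i
      (ia_mem_nd' (n := n) (j0 := j0) (a0 := a0) hvx (by omega))
      (ia_mem_nd' (n := n) (j0 := j0) (a0 := a0) hvy (by omega))
    have e1 := err_some d A J j0 a0 Y W t hw
    rw [e1]
    have e2 : j0 + v.length - (j0 + w.length) = v.length - w.length := by omega
    rw [e2] at h1
    exact h1

end Vale.Agent.P091.T.H43
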