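import Vale.Agent.P091.T.H103.Dat
import Vale.Agent.P091.T.H120.RepS
import Vale.Agent.P091.T.H233.StageW
import Vale.Agent.P091.T.H316.Stage

/-!
# P091, T block, row E1-D (helper43): the literal `Dat` of one stage of an epoch

`DZ d A J j0 a0 Y W t` = the data of helper103's `inst` for the stage `t` of the activation process
`pdZ` (helper233), with the lists of helper120.
-/

set_option autoImplicit false

open Finset
open Vale.Agent.P091.Spec Vale.Agent.P091.H413 Vale.Agent.P091.T.H350
open Vale.Agent.P091.T.H522 (em)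
open Vale.Agent.P091.T.H120
open scoped Classical

noncomputable section

namespace Vale.Agent.P091.T.H43

variable {C1 D : ℝ} {n b : ℕ} {ι : Type} [Fintype ι]

/-- status of the class `κ` in the stage `t` (departure): the activation node -/
def stZ (pd : H233.PD ι) (t : ℕ) (κ : ι) : Node → Option Node
  | [] => if pd.mem t κ [] then some [] else none
  | c :: v => if pd.mem t κ (c :: v) then
      (if κ ∈ pd.new (c :: v) t then some (c :: v) else stZ pd t κ v) else none

/-- alive density on departure from `v`, normalised by `2 B` -/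
def fZ (d : ZData C1 D n b ι) (j0 a0 : ℕ) (Y : Finset ℕ) (W : ℕ → ℕ → Finset ℕ) (v y : Node) : ℝ :=
  cut d.p (W (j0 + v.length) (T.ia a0 v)) (T.ia a0 y) / (2 * av n j0 a0 (cut d.p Y))

/-- **the data of the stage `t`** -/
def DZ (d : ZData C1 D n b ι) (A : ℝ) (J : List (Un n b)) (j0 a0 : ℕ) (Y : Finset ℕ)
    (W : ℕ → ℕ → Finset ℕ) (t : ℕ) : H103.Dat ι (ZMod (2 ^ (n + b))) (QJ J) where
  n := n - j0
  a κ x := d.a κ (T.ia a0 x)
  A κ x := d.A κ (T.ia a0 x)
  f := fZ d j0 a0 Y W
  e κ y := ch n b (-(d.r κ * (T.ia a0 y : ℕ)))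
  E i y := ch n b (-(i * (T.ia a0 y : ℕ)))
  st := stZ (H233.pdZ d A J j0 a0) t
  pi w κ i := H233.wtZ d A J j0 a0 t κ w i
  P q y := kerJ J (T.ia a0 y) q
  s w κ i x q := sS J (j0 + w.length) (ES d A J j0 a0 t w κ) (d.r κ) i q (T.ia a0 x)
  c w κ i := cS J (j0 + w.length) (ES d A J j0 a0 t w κ) (d.r κ) i
  err κ v := match stZ (H233.pdZ d A J j0 a0) t κ v with
    | none => 0
    | some w => 4 * Real.pi / 2 ^ b / 2 ^ (v.length - w.length)

/-! ## the status -/

section st

variable (pd : H233.PD ι)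

lemma stZ_ne_none {t : ℕ} {κ : ι} {v : Node} : stZ pd t κ v ≠ none ↔ pd.mem t κ v := by
  induction v with
  | nil => simp [stZ]
  | cons c v ih =>
    simp only [stZ]
    by_cases h : pd.mem t κ (c :: v)
    · by_cases h2 : κ ∈ pd.new (c :: v) t
      · simp [h, h2]
      · simp only [h, h2, if_true, if_false, iff_true]
        rw [ih]
        obtain ⟨ℓ, h3, h4⟩ := pd.exists_new h
        rcases h3.eq_or_lt with h5 | h5
        · rw [h5, H233.anc_self] at h4
          exact absurd h4 h2
        · have h6 : ℓ ≤ v.length := by simp only [List.length_cons] at h5; omega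
          rw [H233.anc_cons c h6] at h4
          exact pd.mem_of_cons c h (pd.act_anc h6 t (pd.new_sub_act _ _ h4))
    · simp [h]

lemma stZ_eq_none {t : ℕ} {κ : ι} {v : Node} : stZ pd t κ v = none ↔ ¬ pd.mem t κ v := by
  rw [← stZ_ne_none pd, not_not]

/-- the status is the activation node -/
lemma stZ_some {t : ℕ} {κ : ι} {v w : Node} (h : stZ pd t κ v = some w) :
    pd.mem t κ v ∧ w.length ≤ v.length ∧ w = H233.anc w.length v ∧ κ ∈ pd.new w t := by
  have h0 : pd.mem t κ v := by rw [← stZ_ne_none pd, h]; simp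
  refine ⟨h0, ?_⟩
  induction v with
  | nil =>
    simp only [stZ] at h
    rw [if_pos h0] at h
    simp only [Option.some.injEq] at h
    subst h
    refine ⟨le_rfl, by simp [H233.anc], ?_⟩
    obtain ⟨ℓ, h3, h4⟩ := pd.exists_new h0
    simpa [H233.anc] using h4
  | cons c v ih =>
    simp only [stZ] at h
    rw [if_pos h0] at h
    split_ifs at h with h2
    · simp only [Option.some.injEq] at h
      subst h
      exact ⟨le_rfl, (H233.anc_self _).symm, h2⟩
    · have h1 : pd.mem t κ v := by rw [← stZ_ne_none pd, h]; simp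
      obtain ⟨i1, i2, i3⟩ := ih h h1
      refine ⟨by simp only [List.length_cons]; omega, ?_, i3⟩
      rw [H233.anc_cons c i1]
      exact i2

lemma stZ_new {t : ℕ} {κ : ι} {v : Node} (h : κ ∈ pd.new v t) : stZ pd t κ v = some v := by
  have h0 := pd.new_mem h
  cases v with
  | nil => simp [stZ, h0]
  | cons c v => simp only [stZ]; rw [if_pos h0, if_pos h]

/-- membership at the child and at the node: the status is inherited -/
lemma stZ_cons {t : ℕ} {κ : ι} {c : Bool} {v : Node} (h : pd.mem t κ (c :: v))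
    (h1 : pd.mem t κ v) : stZ pd t κ (c :: v) = stZ pd t κ v := by
  simp only [stZ]
  rw [if_pos h, if_neg]
  intro h2
  obtain ⟨_, h3, _⟩ := pd.new_spec h2
  exact h3 h1.1

/-- the status of a class of the stage -/
lemma stZ_mem {t : ℕ} {κ : ι} {v : Node} (h : pd.mem t κ v) : ∃ w, stZ pd t κ v = some w :=
  Option.ne_none_iff_exists'.1 ((stZ_ne_none pd).2 h)

lemma stZ_anc {t : ℕ} {κ : ι} {v : Node} {ℓ : ℕ} (hℓ : ℓ ≤ v.length) (h : pd.mem t κ v)
    (h1 : κ ∈ pd.new (H233.anc ℓ v) t) : stZ pd t κ v = some (H233.anc ℓ v) := by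
  obtain ⟨w, hw⟩ := stZ_mem pd h
  obtain ⟨_, h3, h4, h5⟩ := stZ_some pd hw
  have e : w.length = ℓ := pd.new_unique h3 hℓ (by rw [← h4]; exact h5) h1
  rw [hw, h4, e]

end st

end Vale.Agent.P091.T.H43
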