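import Vale.Agent.P091.T.Props
import Vale.Agent.P091.T.H233.Stage
import Vale.Agent.P091.T.H34.ZBridge
import Vale.Agent.P091.H413.Sys4

/-!
# P091, T block, row E1-G (helper43): the epoch form is a sum over the stages

Relative tree below `(j0, a0)`: the node `v` of the list tree is the node `(j0 + |v|, ia a0 v)`.

* `below_rel` : `below j0 a0 j1 f = SC (j1 - j0) (2^|v| f(v)) []`;
* `ng_rel` : the node term in the relative tree;
* `glue` : `‖below (ng (cut p (W ·)))‖ ≤ 2 ms(Y) ∑_t (X_t + 2)` if, for every stage `t` and every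
  child `c`, the half-difference form of the stage is at most `X_t`.
-/

set_option autoImplicit false

open Finset
open Vale.Agent.P091.Spec Vale.Agent.P091.H413 Vale.Agent.P091.T.H350 Vale.Agent.P091.T
open scoped Classical

noncomputable section

namespace Vale.Agent.P091.T.H43

/-! ## the relative tree -/

/-- the index of the relative node `v` in its level -/
def ia (a0 : ℕ) (v : Node) : ℕ := a0 * 2 ^ v.length + ix v

@[simp] lemma ia_nil (a0 : ℕ) : ia a0 [] = a0 := by simp [ia]

@[simp] lemma ia_true (a0 : ℕ) (v : Node) : ia a0 (true :: v) = 2 * ia a0 v := by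
  unfold ia
  rw [List.length_cons, ix_true, pow_succ]
  ring

@[simp] lemma ia_false (a0 : ℕ) (v : Node) : ia a0 (false :: v) = 2 * ia a0 v + 1 := by
  unfold ia
  rw [List.length_cons, ix_false, pow_succ]
  ring

lemma ia_div (a0 : ℕ) (v : Node) : ia a0 v / 2 ^ v.length = a0 := by
  unfold ia
  rw [add_comm, Nat.add_mul_div_right _ _ (by positivity), Nat.div_eq_of_lt (ix_lt v), zero_add]

lemma ia_cons_div (a0 : ℕ) (c : Bool) (v : Node) : ia a0 (c :: v) / 2 = ia a0 v := by
  cases c
  · rw [ia_false]; omega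
  · rw [ia_true]; omega

/-- average over a relative node, real -/
def AR (n j0 a0 : ℕ) (F : ℕ → ℝ) (v : Node) : ℝ := av n (j0 + v.length) (ia a0 v) F

/-- average over a relative node, complex -/
def XA (n j0 a0 : ℕ) (F : ℕ → ℂ) (v : Node) : ℂ := avC n (j0 + v.length) (ia a0 v) F

lemma AR_nonneg {n j0 a0 : ℕ} {F : ℕ → ℝ} (h : ∀ i, 0 ≤ F i) (v : Node) : 0 ≤ AR n j0 a0 F v :=
  av_nonneg h

lemma AR_mart {n j0 a0 : ℕ} (F : ℕ → ℝ) {v : Node} (hv : j0 + v.length < n) :
    AR n j0 a0 F v = (AR n j0 a0 F (true :: v) + AR n j0 a0 F (false :: v)) / 2 := by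
  unfold AR
  rw [av_mart hv, ia_true, ia_false, List.length_cons, List.length_cons, add_assoc]

lemma XA_mart {n j0 a0 : ℕ} (F : ℕ → ℂ) {v : Node} (hv : j0 + v.length < n) :
    XA n j0 a0 F v = (XA n j0 a0 F (true :: v) + XA n j0 a0 F (false :: v)) / 2 := by
  unfold XA
  rw [avC_mart hv, ia_true, ia_false, List.length_cons, List.length_cons, add_assoc]

/-- the average over a relative node is the average over the leaves below it -/
lemma Lf_AR {n j0 a0 : ℕ} (F : ℕ → ℝ) (m : ℕ) (v : Node) (hv : j0 + v.length + m = n) :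
    Lf m (fun x => F (ia a0 x)) v = AR n j0 a0 F v := by
  induction m generalizing v with
  | zero =>
    simp only [Lf]
    unfold AR
    have : j0 + v.length = n := by omega
    rw [this, av_leaf]
  | succ m ih =>
    simp only [Lf]
    rw [ih (true :: v) (by simp only [List.length_cons]; omega),
      ih (false :: v) (by simp only [List.length_cons]; omega), ← AR_mart F (by omega)]

/-- the same for complex functions -/
lemma Lc_XA {n j0 a0 : ℕ} (F : ℕ → ℂ) (m : ℕ) (v : Node) (hv : j0 + v.length + m = n) :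
    H587.Lc m (fun x => F (ia a0 x)) v = XA n j0 a0 F v := by
  induction m generalizing v with
  | zero =>
    simp only [H587.Lc]
    unfold XA
    have : j0 + v.length = n := by omega
    rw [this, avC_leaf]
  | succ m ih =>
    simp only [H587.Lc]
    rw [ih (true :: v) (by simp only [List.length_cons]; omega),
      ih (false :: v) (by simp only [List.length_cons]; omega), ← XA_mart F (by omega)]

/-- a sum over the nodes below `(j0, a0)` in the relative tree -/
theorem below_rel (j0 a0 j1 : ℕ) (f : ℕ → ℕ → ℂ) :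
    below j0 a0 j1 f
      = SC (j1 - j0) (fun v => 2 ^ v.length * f (j0 + v.length) (ia a0 v)) [] := by
  rw [SC_eq_sum]
  unfold below
  rw [sum_Ico_eq_sum_range]
  refine sum_congr rfl fun i _ => ?_
  have h := LC_eq i (fun l c => (2:ℂ) ^ l * f (j0 + l) (a0 * 2 ^ l + c)) []
  simp only [List.length_nil, ix_nil, zero_add, mul_zero] at h
  have e : (fun w : Node => (2:ℂ) ^ w.length * f (j0 + w.length) (ia a0 w))
      = fun w => (2:ℂ) ^ w.length * f (j0 + w.length) (a0 * 2 ^ w.length + ix w) := rfl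
  rw [e, h, ← mul_sum, mul_div_cancel_left₀ _ (pow_ne_zero i (two_ne_zero' ℂ)),
    Nat.add_sub_cancel_left,
    sum_Ico_eq_sum_range]
  have e2 : (a0 + 1) * 2 ^ i - a0 * 2 ^ i = 2 ^ i := by
    rw [add_mul, one_mul, Nat.add_sub_cancel_left]
  rw [e2]

/-! ## the node term -/

variable {C1 D : ℝ} {n b : ℕ} {ι : Type} [Fintype ι]

/-- the half difference of the letters at the relative node `v`, normalised by `2 B` -/
def dY (d : ZData C1 D n b ι) (j0 a0 : ℕ) (W : ℕ → ℕ → Finset ℕ) (B : ℝ) (k : ι) (v : Node) : ℂ :=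
  dZ n b (cut d.p (W (j0 + v.length) (ia a0 v))) (d.r k) (j0 + v.length) (ia a0 v) / (2 * B)

/-- the node term in the relative tree -/
theorem ng_rel (d : ZData C1 D n b ι) (j0 a0 : ℕ) (W : ℕ → ℕ → Finset ℕ) {B : ℝ} (hB : B ≠ 0)
    {v : Node} (hv : j0 + v.length + 2 ≤ n) :
    2 ^ v.length * ng d (cut d.p (W (j0 + v.length) (ia a0 v))) (j0 + v.length) (ia a0 v)
      = (2 * B / 2 ^ j0 : ℂ) * ∑ k, (if d.js k + 3 ≤ j0 + v.length then
          hd (hd (XA n j0 a0 (d.A k))) v * dY d j0 a0 W B k v else 0) := by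
  unfold ng
  rw [mul_sum, mul_sum]
  refine sum_congr rfl fun k _ => ?_
  by_cases hk : d.js k + 3 ≤ j0 + v.length
  · rw [if_pos hk, if_pos hk]
    have h1 : hd (hd (XA n j0 a0 (d.A k))) v
        = (∑ i ∈ nd n (j0 + v.length) (ia a0 v), d.A k i * sg n (j0 + v.length) i)
            / 2 ^ (n - (j0 + v.length)) := by
      rw [node_term hv]
      unfold hd XA
      simp only [List.length_cons, ia_true, ia_false]
      have e1 : 2 * (2 * ia a0 v) = 4 * ia a0 v := by ring
      have e3 : 2 * (2 * ia a0 v + 1) = 4 * ia a0 v + 2 := by ring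
      rw [e1, e3]
      rfl
    rw [h1]
    unfold dY
    have e : (2:ℂ) ^ n = 2 ^ (n - (j0 + v.length)) * (2 ^ j0 * 2 ^ v.length) := by
      rw [← pow_add, ← pow_add]
      congr 1
      omega
    have hB' : (B : ℂ) ≠ 0 := by exact_mod_cast hB
    rw [e]
    field_simp
  · rw [if_neg hk, if_neg hk]
    ring

/-- `dY` is at most one -/
theorem norm_dY_le (d : ZData C1 D n b ι) {s0 : ℝ} {j0 a0 : ℕ} {Y : Finset ℕ}
    {W : ℕ → ℕ → Finset ℕ} (hF : Fam d s0 j0 a0 Y W) (k : ι) {v : Node}
    (hv : j0 + v.length < n) :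
    ‖dY d j0 a0 W (av n j0 a0 (cut d.p Y)) k v‖ ≤ 1 := by
  have hB : 0 < av n j0 a0 (cut d.p Y) := (Real.exp_pos _).trans_le hF.dens
  have hc : ∀ (Z : Finset ℕ) i, 0 ≤ cut d.p Z i := fun Z i => by
    unfold cut; split_ifs
    · exact d.p_nonneg i
    · exact le_rfl
  have h1 : ∀ j a, ‖BZ n b (cut d.p (W (j0 + v.length) (ia a0 v))) (d.r k) j a‖
      ≤ av n j a (cut d.p (W (j0 + v.length) (ia a0 v))) := by
    intro j a
    unfold BZ
    refine norm_avC_le fun i _ => ?_
    rw [norm_mul, Complex.norm_real, Real.norm_of_nonneg (hc _ i)]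
    have : ‖ch n b (-(d.r k * i))‖ = 1 := by
      unfold ch
      exact AddChar.norm_apply _ _
    rw [this, mul_one]
  have h2 : ‖dZ n b (cut d.p (W (j0 + v.length) (ia a0 v))) (d.r k) (j0 + v.length) (ia a0 v)‖
      ≤ av n (j0 + v.length) (ia a0 v) (cut d.p (W (j0 + v.length) (ia a0 v))) := by
    unfold dZ
    rw [av_mart hv, norm_div, Complex.norm_ofNat]
    have := norm_sub_le
      (BZ n b (cut d.p (W (j0 + v.length) (ia a0 v))) (d.r k) (j0 + v.length + 1) (2 * ia a0 v))
      (BZ n b (cut d.p (W (j0 + v.length) (ia a0 v))) (d.r k) (j0 + v.length + 1) (2 * ia a0 v + 1))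
    have h3 := h1 (j0 + v.length + 1) (2 * ia a0 v)
    have h4 := h1 (j0 + v.length + 1) (2 * ia a0 v + 1)
    gcongr
    linarith
  have h5 : av n (j0 + v.length) (ia a0 v) (cut d.p (W (j0 + v.length) (ia a0 v)))
      ≤ 2 * av n j0 a0 (cut d.p Y) := by
    have hdiv : ia a0 v / 2 ^ (j0 + v.length - j0) = a0 := by
      rw [Nat.add_sub_cancel_left]; exact ia_div a0 v
    rcases (W (j0 + v.length) (ia a0 v)).eq_empty_or_nonempty with h0 | h0
    · rw [h0]
      have : cut d.p ∅ = fun _ => 0 := by funext i; simp [cut]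
      rw [this, av_const]
      positivity
    · refine le_trans (av_mono fun i _ => ?_) (hF.W_le _ _ (by omega) (by omega) hdiv h0)
      unfold cut
      have hs := hF.W_sub (j0 + v.length) (ia a0 v) (by omega) (by omega) hdiv
      by_cases hi : i ∈ W (j0 + v.length) (ia a0 v)
      · rw [if_pos hi, if_pos (hs hi)]
      · rw [if_neg hi]
        exact hc _ i
  unfold dY
  rw [norm_div]
  have h6 : ‖(2 * (av n j0 a0 (cut d.p Y) : ℂ))‖ = 2 * av n j0 a0 (cut d.p Y) := by
    rw [norm_mul, Complex.norm_ofNat, Complex.norm_real, Real.norm_of_nonneg hB.le]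
  rw [h6, div_le_one (by positivity)]
  exact h2.trans h5

/-! ## leaving a stage -/

section leave

variable (pd : H233.PD ι)

lemma leave_once {t i i' : ℕ} {κ : ι} {x : Node} (hx : i' ≤ x.length) (h : i < i')
    (h1 : pd.mem t κ (H233.anc i x)) (h2 : ¬ pd.mem t κ (H233.anc (i + 1) x))
    (h3 : pd.mem t κ (H233.anc i' x)) : False := by
  apply h2
  have e1 : H233.anc i (H233.anc (i + 1) x) = H233.anc i x :=
    H233.anc_anc (by omega) (by omega)
  have e2 : H233.anc (i + 1) (H233.anc i' x) = H233.anc (i + 1) x :=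
    H233.anc_anc (by omega) hx
  have l1 : (H233.anc (i + 1) x).length = i + 1 := H233.length_anc (by omega)
  have l2 : (H233.anc i' x).length = i' := H233.length_anc hx
  refine ⟨?_, fun h4 => h3.2.1 ?_, fun h4 => h3.2.2 ?_⟩
  · have := pd.act_anc (v := H233.anc (i + 1) x) (ℓ := i) (by omega) t
    rw [e1] at this
    exact this h1.1
  · have := pd.low_anc (v := H233.anc i' x) (ℓ := i + 1) (by omega) t
    rw [e2] at this
    exact this h4
  · refine pd.gone_anc (v := H233.anc i' x) (ℓ := i + 1) (by omega) ?_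
    rw [e2]
    exact h4

lemma leave_count (t : ℕ) (κ : ι) (x : Node) {N : ℕ} (hx : N ≤ x.length) :
    ∑ i ∈ range N, (if pd.mem t κ (H233.anc i x) ∧ ¬ pd.mem t κ (H233.anc (i + 1) x)
      then (1:ℝ) else 0) ≤ 1 := by
  rw [← sum_filter, sum_const, nsmul_eq_mul, mul_one]
  have : (filter (fun i => pd.mem t κ (H233.anc i x) ∧ ¬ pd.mem t κ (H233.anc (i + 1) x))
      (range N)).card ≤ 1 := by
    rw [card_le_one]
    intro i hi i' hi'
    simp only [mem_filter, mem_range] at hi hi'
    rcases Nat.lt_trichotomy i i' with h | h | h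
    · exact (leave_once pd (by omega) h hi.2.1 hi.2.2 hi'.2.1).elim
    · exact h
    · exact (leave_once pd (by omega) h hi'.2.1 hi'.2.2 hi.2.1).elim
  exact_mod_cast this

lemma leave_le (d : ZData C1 D n b ι) {j0 a0 : ℕ} (hj : j0 ≤ n) (t : ℕ) (c : Bool) :
    S (n - 1 - j0) (fun v => ∑ κ, if pd.mem t κ v ∧ ¬ pd.mem t κ (c :: v)
      then AR n j0 a0 (d.a κ) (c :: v) else 0) [] ≤ 2 := by
  set N := n - j0 with hN
  set F : ℕ → Node → ℝ := fun j x => ∑ κ, if pd.mem t κ (H233.anc j x) ∧
    ¬ pd.mem t κ (H233.anc (j + 1) x) then d.a κ (ia a0 x) else 0 with hF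
  have h0 : ∀ w : Node, w.length < N →
      Lf (N - w.length) (F w.length) w
        = ((∑ κ, if pd.mem t κ w ∧ ¬ pd.mem t κ (true :: w)
            then AR n j0 a0 (d.a κ) (true :: w) else 0)
          + ∑ κ, if pd.mem t κ w ∧ ¬ pd.mem t κ (false :: w)
            then AR n j0 a0 (d.a κ) (false :: w) else 0) / 2 := by
    intro w hw
    obtain ⟨m, hm⟩ : ∃ m, N - w.length = m + 1 := ⟨N - w.length - 1, by omega⟩
    rw [hm]
    simp only [Lf]
    have key : ∀ c : Bool, Lf m (F w.length) (c :: w)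
        = ∑ κ, if pd.mem t κ w ∧ ¬ pd.mem t κ (c :: w)
            then AR n j0 a0 (d.a κ) (c :: w) else 0 := by
      intro c
      have e1 : Lf m (F w.length) (c :: w)
          = Lf m (fun x => ∑ κ, if pd.mem t κ w ∧ ¬ pd.mem t κ (c :: w)
            then d.a κ (ia a0 x) else 0) (c :: w) := by
        refine H233.Lf_congr_below m (c :: w) fun l _ => ?_
        simp only [hF]
        have e2 : H233.anc w.length (l ++ c :: w) = w := by
          rw [H233.anc_append l (by simp), H233.anc_cons c le_rfl, H233.anc_self]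
        have e3 : H233.anc (w.length + 1) (l ++ c :: w) = c :: w := by
          rw [H233.anc_append l (by simp)]
          exact H233.anc_self (c :: w)
        rw [e2, e3]
      rw [e1, H587.Lf_sum]
      refine sum_congr rfl fun κ _ => ?_
      split_ifs with h
      · exact Lf_AR (d.a κ) m (c :: w) (by simp only [List.length_cons]; omega)
      · exact H587.Lf_const m 0 (c :: w)
    rw [key true, key false]
  have hnn : ∀ w : Node, ∀ c : Bool, 0 ≤ ∑ κ, if pd.mem t κ w ∧ ¬ pd.mem t κ (c :: w)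
            then AR n j0 a0 (d.a κ) (c :: w) else 0 := by
    intro w c
    refine sum_nonneg fun κ _ => ?_
    split_ifs
    · exact AR_nonneg (d.a_nonneg κ) _
    · exact le_rfl
  have h1 : S (n - 1 - j0) (fun v => ∑ κ, if pd.mem t κ v ∧ ¬ pd.mem t κ (c :: v)
      then AR n j0 a0 (d.a κ) (c :: v) else 0) []
      ≤ S (n - 1 - j0) (fun v => 2 * Lf (N - v.length) (F v.length) v) [] := by
    refine S_mono _ _ fun w hw => ?_
    rw [List.length_nil, Nat.add_zero] at hw
    rw [h0 w (by omega)]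
    have h2 := hnn w true
    have h3 := hnn w false
    cases c
    · linarith
    · linarith
  have hFn : ∀ j x, 0 ≤ F j x := by
    intro j x
    refine sum_nonneg fun κ _ => ?_
    split_ifs
    · exact d.a_nonneg κ _
    · exact le_rfl
  have h2 : S (n - 1 - j0) (fun v => 2 * Lf (N - v.length) (F v.length) v) []
      ≤ S N (fun v => 2 * Lf (N - v.length) (F v.length) v) [] := by
    rcases hj.eq_or_lt with h | h
    · have e1 : n - 1 - j0 = 0 := by omega
      have e2 : N = 0 := by omega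
      rw [e1, e2]
    · have e1 : N = (n - 1 - j0) + 1 := by omega
      have := S_le_succ (n - 1 - j0)
        (f := fun v => 2 * Lf (N - v.length) (F v.length) v) []
        (fun w _ => mul_nonneg (by norm_num) (H587.Lf_nonneg _ _ fun x _ => hFn _ x))
      rw [← e1] at this
      exact this
  have h3 : S N (fun v => 2 * Lf (N - v.length) (F v.length) v) []
      = 2 * Lf N (fun x => ∑ j ∈ range N, F j x) [] := by
    rw [S_smul, H587.S_swap0 N F]
  have h4 : Lf N (fun x => ∑ j ∈ range N, F j x) [] ≤ 1 := by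
    refine H587.Lf_le_of N [] fun x hx => ?_
    rw [List.length_nil, Nat.add_zero] at hx
    simp only [hF]
    rw [sum_comm]
    refine (sum_le_sum fun κ _ => ?_).trans (d.a_sum (ia a0 x))
    have := mul_le_mul_of_nonneg_left (leave_count pd t κ x hx.ge) (d.a_nonneg κ (ia a0 x))
    rw [mul_one, mul_sum] at this
    refine le_trans (sum_le_sum fun i _ => ?_) this
    split_ifs
    · rw [mul_one]
    · rw [mul_zero]
  calc _ ≤ _ := h1
    _ ≤ _ := h2
    _ = _ := h3
    _ ≤ 2 := by linarith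

end leave

/-! ## the form of an epoch from the forms of the stages -/

lemma norm_XA_le {F : ℕ → ℂ} {G : ℕ → ℝ} (h : ∀ i, ‖F i‖ ≤ G i) (j0 a0 : ℕ) (v : Node) :
    ‖XA n j0 a0 F v‖ ≤ AR n j0 a0 G v := norm_avC_le fun i _ => h i

lemma norm_hd_XA_le {F : ℕ → ℂ} {G : ℕ → ℝ} (h : ∀ i, ‖F i‖ ≤ G i) (j0 a0 : ℕ) {v : Node}
    (hv : j0 + v.length < n) : ‖hd (XA n j0 a0 F) v‖ ≤ AR n j0 a0 G v := by
  rw [AR_mart G hv]
  unfold hd
  rw [norm_div, Complex.norm_ofNat]
  have h1 := norm_sub_le (XA n j0 a0 F (true :: v)) (XA n j0 a0 F (false :: v))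
  have h2 := norm_XA_le (n := n) h j0 a0 (true :: v)
  have h3 := norm_XA_le (n := n) h j0 a0 (false :: v)
  gcongr
  linarith

/-- the half-difference form of the stage `t` at the child `c` of `v`: classes that are in the
stage at `v` and at the child -/
def FC (d : ZData C1 D n b ι) (j0 a0 : ℕ) (W : ℕ → ℕ → Finset ℕ) (B : ℝ) (pd : H233.PD ι)
    (t : ℕ) (c : Bool) (v : Node) : ℂ :=
  ∑ κ, if pd.mem t κ v ∧ pd.mem t κ (c :: v) then
    hd (XA n j0 a0 (d.A κ)) (c :: v) * dY d j0 a0 W B κ v else 0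

/-- one stage -/
theorem stage_le (d : ZData C1 D n b ι) {s0 : ℝ} {j0 a0 : ℕ} {Y : Finset ℕ}
    {W : ℕ → ℕ → Finset ℕ} (hF : Fam d s0 j0 a0 Y W) (pd : H233.PD ι) (t : ℕ) {X : ℝ}
    (hX : ∀ c : Bool, S (n - 1 - j0)
      (fun v => ‖FC d j0 a0 W (av n j0 a0 (cut d.p Y)) pd t c v‖) [] ≤ X) :
    ‖SC (n - 1 - j0) (fun v => ∑ κ, if pd.mem t κ v then
      hd (hd (XA n j0 a0 (d.A κ))) v * dY d j0 a0 W (av n j0 a0 (cut d.p Y)) κ v else 0) []‖
      ≤ X + 2 := by
  set B := av n j0 a0 (cut d.p Y) with hB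
  have h1 : ∀ v : Node, v.length < n - 1 - j0 →
      ‖∑ κ, if pd.mem t κ v then
        hd (hd (XA n j0 a0 (d.A κ))) v * dY d j0 a0 W B κ v else 0‖
      ≤ (1 / 2) * (‖FC d j0 a0 W B pd t true v‖ + ∑ κ, if pd.mem t κ v ∧
            ¬ pd.mem t κ (true :: v) then AR n j0 a0 (d.a κ) (true :: v) else 0)
        + (1 / 2) * (‖FC d j0 a0 W B pd t false v‖ + ∑ κ, if pd.mem t κ v ∧
            ¬ pd.mem t κ (false :: v) then AR n j0 a0 (d.a κ) (false :: v) else 0) := by
    intro v hv
    have e : (∑ κ, if pd.mem t κ v then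
        hd (hd (XA n j0 a0 (d.A κ))) v * dY d j0 a0 W B κ v else 0)
        = (1 / 2) * (FC d j0 a0 W B pd t true v + ∑ κ, if pd.mem t κ v ∧
            ¬ pd.mem t κ (true :: v) then
              hd (XA n j0 a0 (d.A κ)) (true :: v) * dY d j0 a0 W B κ v else 0)
          - (1 / 2) * (FC d j0 a0 W B pd t false v + ∑ κ, if pd.mem t κ v ∧
            ¬ pd.mem t κ (false :: v) then
              hd (XA n j0 a0 (d.A κ)) (false :: v) * dY d j0 a0 W B κ v else 0) := by
      unfold FC
      rw [← sum_add_distrib, ← sum_add_distrib, mul_sum, mul_sum, ← sum_sub_distrib]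
      refine sum_congr rfl fun κ _ => ?_
      by_cases h0 : pd.mem t κ v <;> by_cases h1 : pd.mem t κ (true :: v) <;>
        by_cases h2 : pd.mem t κ (false :: v) <;> simp [h0, h1, h2, hd] <;> ring
    have key : ∀ c : Bool, ‖∑ κ, if pd.mem t κ v ∧ ¬ pd.mem t κ (c :: v) then
              hd (XA n j0 a0 (d.A κ)) (c :: v) * dY d j0 a0 W B κ v else 0‖
        ≤ ∑ κ, if pd.mem t κ v ∧ ¬ pd.mem t κ (c :: v) then
              AR n j0 a0 (d.a κ) (c :: v) else 0 := by
      intro c
      refine norm_sum_le_of_le _ fun κ _ => ?_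
      split_ifs
      · rw [norm_mul]
        have h2 := norm_hd_XA_le (n := n) (d.A_le κ) j0 a0 (v := c :: v)
          (by simp only [List.length_cons]; omega)
        have h3 := norm_dY_le d hF κ (v := v) (by omega)
        calc _ ≤ AR n j0 a0 (d.a κ) (c :: v) * 1 :=
              mul_le_mul h2 h3 (norm_nonneg _) (AR_nonneg (d.a_nonneg κ) _)
          _ = _ := mul_one _
      · simp
    rw [e]
    refine (norm_sub_le _ _).trans ?_
    rw [norm_mul, norm_mul]
    have e2 : ‖(1 / 2 : ℂ)‖ = 1 / 2 := by norm_num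
    rw [e2]
    have h2 := norm_add_le (FC d j0 a0 W B pd t true v) (∑ κ, if pd.mem t κ v ∧
            ¬ pd.mem t κ (true :: v) then
              hd (XA n j0 a0 (d.A κ)) (true :: v) * dY d j0 a0 W B κ v else 0)
    have h3 := norm_add_le (FC d j0 a0 W B pd t false v) (∑ κ, if pd.mem t κ v ∧
            ¬ pd.mem t κ (false :: v) then
              hd (XA n j0 a0 (d.A κ)) (false :: v) * dY d j0 a0 W B κ v else 0)
    have h4 := key true
    have h5 := key false
    gcongr
    · linarith
    · linarith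
  refine (norm_SC_le _ _ _).trans ?_
  refine (S_mono _ _ fun v hv => h1 v (by simpa using hv)).trans ?_
  rw [S_add, S_smul, S_smul, S_add, S_add]
  have h2 := leave_le pd d (a0 := a0) hF.j0_le t true
  have h3 := leave_le pd d (a0 := a0) hF.j0_le t false
  have h4 := hX true
  have h5 := hX false
  linarith

/-- **Row E1-G.** -/
theorem glue (d : ZData C1 D n b ι) {s0 : ℝ} {j0 a0 : ℕ} {Y : Finset ℕ}
    {W : ℕ → ℕ → Finset ℕ} (hF : Fam d s0 j0 a0 Y W) (pd : H233.PD ι)
    (hst : ∀ κ (v : Node), pd.st κ v ↔ d.js κ + 3 ≤ j0 + v.length)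
    (hgone : ∀ κ (v : Node), j0 + v.length ≤ n → pd.gone κ v →
      ∀ i ∈ nd n (j0 + v.length) (ia a0 v), d.A κ i = 0)
    (S0 : ℕ) (hJ : ∀ Z v, pd.rule S0 Z v = Z) (X : ℕ → ℝ)
    (hX : ∀ t ≤ S0, ∀ c : Bool, S (n - 1 - j0)
      (fun v => ‖FC d j0 a0 W (av n j0 a0 (cut d.p Y)) pd t c v‖) [] ≤ X t) :
    ‖below j0 a0 (n - 1) fun j a => ng d (cut d.p (W j a)) j a‖
      ≤ 2 * ms n j0 a0 (cut d.p Y) * ∑ t ∈ range (S0 + 1), (X t + 2) := by
  set B := av n j0 a0 (cut d.p Y) with hB
  have hB0 : 0 < B := (Real.exp_pos _).trans_le hF.dens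
  have hpres : ∀ t κ (v : Node), pd.mem t κ v → κ ∈ pd.pres v := by
    intro t κ v h
    obtain ⟨ℓ, hℓ, h1⟩ := pd.exists_new h
    have h2 := (pd.mem_pres.1 (pd.new_spec h1).1).1
    rw [hst, H233.length_anc hℓ] at h2
    rw [pd.mem_pres, hst]
    exact ⟨by omega, h.2.2⟩
  have h1 : below j0 a0 (n - 1) (fun j a => ng d (cut d.p (W j a)) j a)
      = (2 * B / 2 ^ j0 : ℂ) * ∑ t ∈ range (S0 + 1), SC (n - 1 - j0) (fun v => ∑ κ,
        if pd.mem t κ v then hd (hd (XA n j0 a0 (d.A κ))) v * dY d j0 a0 W B κ v else 0) [] := by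
    rw [below_rel, ← SC_sum, ← SC_smul]
    refine SC_congr _ _ fun v hv => ?_
    rw [List.length_nil, Nat.add_zero] at hv
    rw [ng_rel d j0 a0 W hB0.ne' (by omega)]
    congr 1
    have h2 : (∑ k, if d.js k + 3 ≤ j0 + v.length then
          hd (hd (XA n j0 a0 (d.A k))) v * dY d j0 a0 W B k v else 0)
        = ∑ κ ∈ pd.pres v, hd (hd (XA n j0 a0 (d.A κ))) v * dY d j0 a0 W B κ v := by
      rw [← sum_filter]
      symm
      refine sum_subset ?_ ?_
      · intro κ hκ
        rw [pd.mem_pres, hst] at hκ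
        rw [mem_filter]
        exact ⟨mem_univ _, hκ.1⟩
      · intro κ hκ hκ2
        rw [mem_filter] at hκ
        rw [pd.mem_pres, hst] at hκ2
        have hg : pd.gone κ v := by
          by_contra h
          exact hκ2 ⟨hκ.2, h⟩
        have h3 := hgone κ v (by omega) hg
        have h4 : hd (hd (XA n j0 a0 (d.A κ))) v = 0 := by
          have h5 : hd (hd (XA n j0 a0 (d.A κ))) v
              = (∑ i ∈ nd n (j0 + v.length) (ia a0 v), d.A κ i * sg n (j0 + v.length) i)
                / 2 ^ (n - (j0 + v.length)) := by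
            rw [node_term (by omega)]
            unfold hd XA
            simp only [List.length_cons, ia_true, ia_false]
            have e1 : 2 * (2 * ia a0 v) = 4 * ia a0 v := by ring
            have e3 : 2 * (2 * ia a0 v + 1) = 4 * ia a0 v + 2 := by ring
            rw [e1, e3]
            rfl
          rw [h5, sum_eq_zero, zero_div]
          intro i hi
          rw [h3 i hi, zero_mul]
        rw [h4, zero_mul]
    rw [h2, pd.sum_stages hJ v]
    refine sum_congr rfl fun t _ => ?_
    refine sum_subset (subset_univ _) fun κ _ hκ => ?_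
    rw [if_neg fun h => hκ (hpres t κ v h)]
  rw [h1, norm_mul]
  have h2 : ‖(2 * B / 2 ^ j0 : ℂ)‖ = 2 * ms n j0 a0 (cut d.p Y) := by
    rw [H34.ms_eq hF.j0_le, norm_div, norm_mul, norm_pow, Complex.norm_ofNat, Complex.norm_real,
      Real.norm_of_nonneg hB0.le]
    ring
  rw [h2]
  refine mul_le_mul_of_nonneg_left ?_ ?_
  · refine norm_sum_le_of_le _ fun t ht => ?_
    rw [mem_range] at ht
    exact stage_le d hF pd t (hX t (by omega))
  · rw [H34.ms_eq hF.j0_le]
    positivity

end Vale.Agent.P091.T.H43
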