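import Vale.Agent.P091.T.H43.PStage
import Vale.Agent.P091.T8.H655.Asm

/-!
# P091, T block (helper43): `P_E1`, without hypotheses
-/

set_option autoImplicit false

namespace Vale.Agent.P091.T.H43

/-- **row E1** -/
theorem p_E1 : P_E1 := p_E1_of_T8 T8.H655.p_T8

end Vale.Agent.P091.T.H43
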