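import Vale.Agent.P091.T.H43.DZok
import Vale.Agent.P091.T.H103.Inst
import Vale.Agent.P091.T.H233.DatX
import Vale.Agent.P091.T.H34.Em
import Vale.Agent.P091.T8.H655.YDat
import Vale.Agent.P091.T.H454.DatN
import Vale.Agent.P091.T.H284.StageNum
import Vale.Agent.P091.T.H284.ErrNum

/-!
# P091, T block, row E1-D / E1-H (helper43): `P_T8 → P_STAGE → P_E1`

The dictionary of helper103's `inst` for the data `DZ` of a stage, assembled.
-/

set_option autoImplicit false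

open Finset
open Vale.Agent.P091.Spec Vale.Agent.P091.H413 Vale.Agent.P091.T.H350
open Vale.Agent.P065.Ent (IsProb)
open Vale.Agent.P091.T.H120
open scoped Classical

noncomputable section

namespace Vale.Agent.P091.T.H43

section

variable {C1 D : ℝ} {n b : ℕ} {ι : Type} [Fintype ι] {d : ZData C1 D n b ι}
variable {s0 : ℝ} {j0 a0 : ℕ} {Y : Finset ℕ} {W : ℕ → ℕ → Finset ℕ}

/-- the exceptional classes of the stage `t` -/
def ExZ (d : ZData C1 D n b ι) (j0 a0 : ℕ) (W : ℕ → ℕ → Finset ℕ) (t : ℕ) (κ : ι) (v : Node) :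
    Prop :=
  1 ≤ t ∧ (W (j0 + v.length) (T.ia a0 v)).Nonempty ∧
    Bia d (cut d.p (W (j0 + v.length) (T.ia a0 v))) ((1 / 2 : ℝ) ^ t) (j0 + v.length)
      (T.ia a0 v) κ

lemma norm_BZ_le (d : ZData C1 D n b ι) (Z : Finset ℕ) (κ : ι) (j a : ℕ) :
    ‖BZ n b (cut d.p Z) (d.r κ) j a‖ ≤ av n j a (cut d.p Z) := by
  unfold BZ
  refine norm_avC_le fun i _ => ?_
  rw [norm_mul, Complex.norm_real, Real.norm_of_nonneg (cut_nonneg d Z i), norm_ch', mul_one]

/-- **the bias of the classes which are not exceptional** -/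
theorem M_le (hF : Fam d s0 j0 a0 Y W) (A : ℝ) (J : List (Un n b)) (t : ℕ) (κ : ι) {v : Node}
    (hv : v.length < n - j0) (h : ¬ ExZ d j0 a0 W t κ v) :
    ‖(DZ d A J j0 a0 Y W t).M κ v‖ ≤ (1 / 2 : ℝ) ^ t := by
  have hB : 0 < av n j0 a0 (cut d.p Y) := (Real.exp_pos _).trans_le hF.dens
  have hb : 0 < H316.bt d j0 a0 Y := by
    unfold H316.bt
    positivity
  have h1 := M_eq d (DZ d A J j0 a0 Y W t) (Y := Y) (W := W) (a0 := a0) rfl (fun _ _ => rfl)
    (fun _ _ => rfl) κ (v := v) (by omega)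
  rw [h1, norm_div, Complex.norm_real, Real.norm_of_nonneg hb.le, div_le_iff₀ hb]
  have h2 : av n (j0 + v.length) (T.ia a0 v) (cut d.p (W (j0 + v.length) (T.ia a0 v)))
      ≤ H316.bt d j0 a0 Y := av_W_le hF (by omega)
  have h3 := norm_BZ_le d (W (j0 + v.length) (T.ia a0 v)) κ (j0 + v.length) (T.ia a0 v)
  have h4 : (0:ℝ) ≤ (1 / 2) ^ t := by positivity
  rcases Nat.eq_zero_or_pos t with h0 | h0
  · rw [h0, pow_zero, one_mul]
    exact h3.trans h2
  · rcases (W (j0 + v.length) (T.ia a0 v)).eq_empty_or_nonempty with h5 | h5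
    · rw [h5] at h3 ⊢
      have e : cut d.p ∅ = fun _ => 0 := by funext i; simp [cut]
      rw [e, av_const] at h3
      rw [e]
      exact h3.trans (mul_nonneg h4 hb.le)
    · have h6 : ¬ Bia d (cut d.p (W (j0 + v.length) (T.ia a0 v))) ((1 / 2 : ℝ) ^ t)
          (j0 + v.length) (T.ia a0 v) κ := fun h7 => h ⟨h0, h5, h7⟩
      unfold Bia at h6
      push Not at h6
      exact h6.le.trans (mul_le_mul_of_nonneg_left h2 h4)

end

/-- **row E1-D: `P_T8 → P_STAGE`** -/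
theorem p_stage (h8 : P_T8) : H316.P_STAGE := by
  intro s0 A C1 c hs0 hA hC1 hc
  obtain ⟨Ci, hCi, hinst⟩ := H103.inst
  obtain ⟨D1, hphi⟩ := exists_phi_ge' hc
  obtain ⟨D2, hN⟩ := H454.nbad_dat h8 s0 C1 hs0 hC1
  obtain ⟨C, hC, D3, hnum⟩ := H284.stage_num A C1 Ci c (16 * Real.pi) hA hC1 hCi.le hc
  obtain ⟨D4, hthr⟩ := H284.thr_num A C1 12 hA hC1
  obtain ⟨D5, herr⟩ := H284.err_num A C1 hA hC1
  refine ⟨C, max (max (max D1 D2) (max D3 D4)) (max D5 1), ?_⟩
  intro D n ι _ d J j0 a0 Y W t hD hE ht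
  have g1 : D1 ≤ D := ((le_max_left _ _).trans ((le_max_left _ _).trans (le_max_left _ _))).trans hD
  have g2 : D2 ≤ D := ((le_max_right _ _).trans ((le_max_left _ _).trans (le_max_left _ _))).trans hD
  have g3 : D3 ≤ D := ((le_max_left _ _).trans ((le_max_right _ _).trans (le_max_left _ _))).trans hD
  have g4 : D4 ≤ D := ((le_max_right _ _).trans ((le_max_right _ _).trans (le_max_left _ _))).trans hD
  have g5 : D5 ≤ D := ((le_max_left _ _).trans (le_max_right _ _)).trans hD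
  have g6 : (1:ℝ) ≤ D := ((le_max_right _ _).trans (le_max_right _ _)).trans hD
  have hF : Fam d s0 j0 a0 Y W := hE.toFam
  have hA0 : 0 < A := by linarith
  have hD0 : 0 ≤ D := by linarith
  have hth := H284.th_nonneg' hA0.le hD0 (t + 1)
  rcases hF.j0_le.eq_or_lt with hj | hj
  · have e : n - 1 - j0 = 0 := by omega
    rw [e]
    have e2 : SC 0 (H316.gZ d A J j0 a0 Y W t) [] = 0 := rfl
    rw [e2, norm_zero]
    positivity
  have hJ : ∀ k ∈ J, IsProb k.P := fun k hk => (hE.ok k hk).P1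
  have hJ' : ∀ k ∈ J, IsProb k.ρ := fun k hk => (hE.ok k hk).ρ1
  have hφ : PhiGe d A J j0 a0 := hphi D d A J j0 a0 Y g1 hE.len hE.ok
  have hok := DZ_ok (Y := Y) (W := W) hF hj A hJ hJ' hφ t
  have hst : (H233.pdZ d A J j0 a0).StIff t (DZ d A J j0 a0 Y W t).st :=
    H233.PD.StIff.of_rec _ (fun _ => rfl) (fun _ _ _ => rfl)
  have hlm : S (DZ d A J j0 a0 Y W t).n (DZ d A J j0 a0 Y W t).lm [] ≤ 1 :=
    H233.S_lm_le hst (fun κ x => d.a_nonneg κ _) (fun x _ => d.a_sum _)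
  have hem : S (DZ d A J j0 a0 Y W t).n (DZ d A J j0 a0 Y W t).em [] ≤
      2 * (4 * Real.pi / 2 ^ (bb D)) * (1 + 1) :=
    H34.em_le hok (by positivity)
      (fun κ v w _ hw => (err_some d A J j0 a0 Y W t hw).le) hlm
  have hpi := Real.pi_pos
  have hb1 : (1:ℝ) ≤ 2 ^ (bb D) := one_le_pow₀ (by norm_num)
  have hδ0 : (0:ℝ) < (1 / 2) ^ t := by positivity
  have hexp := Real.exp_pos (-(th A D t / 2))
  refine gain_of d (DZ d A J j0 a0 Y W t) A J t rfl (fun _ _ => rfl) (fun _ _ => rfl)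
    (fun _ _ => rfl) (fun κ v => stZ_eq_none _) ?_
  intro z
  refine (hinst ι (ZMod (2 ^ (n + bb D))) (QJ J) (DZ d A J j0 a0 Y W t)
    (ExZ d j0 a0 W t) ((1 / 2) ^ t) ((5 * th A D (t + 1) + 4) / 2)
    (4 + J.length * |ep c D * D|) 1 (2 * (4 * Real.pi / 2 ^ (bb D)) * (1 + 1))
    (2 * Real.exp (-(th A D t / 2))) (D / (4 * (ll D : ℝ) ^ 20)) hok hδ0
    (pow_le_one₀ (by norm_num) (by norm_num)) (by positivity) (by positivity) zero_le_one
    (by positivity) (by positivity) (by positivity) ?_ ?_ ?_ hlm hem ?_ ?_ ?_ z).trans ?_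
  · intro κ v hv _ hx
    exact M_le hF A J t κ hv hx
  · intro κ v hv hs
    obtain ⟨w, hw⟩ := Option.ne_none_iff_exists'.1 hs
    rw [err_some d A J j0 a0 Y W t hw]
    refine le_trans (div_le_self (by positivity) (one_le_pow₀ (by norm_num))) ?_
    exact herr D g5 t ht.le
  · exact H233.xm_le d hst rfl (fun _ _ => rfl) hE ht (fun κ v _ h => h)
  · refine (H233.energyD_wtZ d hst rfl (fun _ _ => rfl) hJ (fun _ _ _ => rfl) hA0 hC1 hD0
      ht).trans (le_of_eq ?_)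
    ring
  · exact T8.H655.dat_y_energy hE (DZ d A J j0 a0 Y W t) rfl (fun _ _ _ _ _ => rfl)
      (fun _ _ _ => rfl)
  · exact hN D n ι d j0 a0 Y W _ _ (DZ d A J j0 a0 Y W t)
      (12 * (2 * Real.exp (-(th A D t / 2))) / (1 / 2) ^ t) g2 hF rfl (fun _ _ => rfl)
      (fun _ _ _ => rfl) (fun _ _ => rfl)
      (fun κ v hv hs => H454.pres_of_mem d (by omega) ((stZ_ne_none _).1 hs)) (hthr D g4 t ht.le)
  · refine hnum D g3 t ht _ _ _ _ _ _ J.length hE.len (by positivity) le_rfl zero_le_one le_rfl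
      (by positivity) ?_ hδ0.le le_rfl (by positivity) (by linarith) (by positivity) le_rfl
    have : 4 * Real.pi / 2 ^ (bb D) ≤ 4 * Real.pi := div_le_self (by positivity) hb1
    linarith

/-- **`P_T8 → P_E1`** -/
theorem p_E1_of_T8 (h8 : P_T8) : P_E1 := p_E1_of (p_stage h8)

end Vale.Agent.P091.T.H43
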